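import Vale.Agent.P073.RT.H694.Top
import Vale.Agent.P073.RT.H339.SpecDR
import Vale.Agent.P073.RT.H741.Cells
import Vale.Agent.P073.RT.H712.Squares
import Vale.Agent.P073.PA285.All

/-!
# P073, (RT): row T4, unconditional
-/

namespace Vale.Agent.P073.RT.T4

theorem specTop_all : SpecTop :=
  specTop (PA285.specASM PA285.specALX) H741.specCells H339.specDR H712.specSquares

end Vale.Agent.P073.RT.T4
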