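import Vale.Agent.P073.RT.Rows

/-!
# P073, (RT), row T4: gluing of the replaced discs to `g` on the skeleton
-/

open Set Metric Topology Filter

namespace Vale.Agent.P073.RT.T4

open _root_.P073
open Vale.Agent.P073.St (V IsInv)
open _root_.P073.PR720 (LF)

theorem locConeAt_iUnion {ι : Type*} {X : ι → Set V} {x : V}
    (hf : ∃ U ∈ 𝓝 x, {i | (X i ∩ U).Nonempty}.Finite) (h : ∀ i, LocConeAt (X i) x) :
    LocConeAt (⋃ i, X i) x := by
  obtain ⟨U, hU, hfin⟩ := hf
  have : Finite {i | (X i ∩ U).Nonempty} := hfin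
  have key : LocConeAt (⋃ i : {i | (X i ∩ U).Nonempty}, X i) x :=
    LocConeAt.iUnion_finite fun i => h i
  refine (locConeAt_congr ?_).1 key
  filter_upwards [hU] with y hy
  constructor
  · intro hh
    obtain ⟨i, hi⟩ := mem_iUnion.1 hh
    exact mem_iUnion.2 ⟨i, hi⟩
  · intro hh
    obtain ⟨i, hi⟩ := mem_iUnion.1 hh
    exact mem_iUnion.2 ⟨⟨i, ⟨y, hi, hy⟩⟩, hi⟩

/-- the open square -/
def odsk (c : V) (k : Fin 3) (r : ℝ) : Set V := {x | x k = c k ∧ ∀ l, l ≠ k → |x l - c l| < r}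

variable {c : V} {k : Fin 3} {r η : ℝ}

theorem odsk_sub : odsk c k r ⊆ dsk c k r := fun _ hx => ⟨hx.1, fun l hl => (hx.2 l hl).le⟩

theorem dsk_sub_plt (hη : 0 ≤ η) : dsk c k r ⊆ plt c k r η := fun x hx =>
  ⟨by rw [hx.1, sub_self, abs_zero]; exact hη, hx.2⟩

theorem odsk_sub_plo (hη : 0 < η) : odsk c k r ⊆ plo c k r η := fun x hx =>
  ⟨by rw [hx.1, sub_self, abs_zero]; exact hη, hx.2⟩

theorem plo_sub : plo c k r η ⊆ plt c k r η := fun _ hx => ⟨hx.1.le, fun l hl => (hx.2 l hl).le⟩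

theorem isOpen_plo : IsOpen (plo c k r η) := by
  have e : plo c k r η = {x : V | |x k - c k| < η} ∩
      ⋂ l : Fin 3, {x : V | l ≠ k → |x l - c l| < r} := by
    ext x
    exact ⟨fun h => ⟨h.1, mem_iInter.2 h.2⟩, fun h => ⟨h.1, mem_iInter.1 h.2⟩⟩
  rw [e]
  refine (isOpen_lt (((continuous_apply k).sub continuous_const).abs) continuous_const).inter ?_
  refine isOpen_iInter_of_finite fun l => ?_
  by_cases hl : l = k
  · have : {x : V | l ≠ k → |x l - c l| < r} = univ := by ext x; simp [hl]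
    rw [this]; exact isOpen_univ
  · have : {x : V | l ≠ k → |x l - c l| < r} = {x : V | |x l - c l| < r} := by
      ext x; exact ⟨fun h => h hl, fun h _ => h⟩
    rw [this]
    exact isOpen_lt (((continuous_apply l).sub continuous_const).abs) continuous_const

theorem plt_eq (hη : 0 ≤ η) : plt c k r η =
    Icc (fun l => if l = k then c l - η else c l - r) (fun l => if l = k then c l + η else c l + r) := by
  ext x
  constructor
  · rintro ⟨h1, h2⟩
    constructor <;> intro l <;> show _ ≤ _ <;> simp only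
    · split_ifs with h
      · subst h; linarith [(abs_le.1 h1).1]
      · linarith [(abs_le.1 (h2 l h)).1]
    · split_ifs with h
      · subst h; linarith [(abs_le.1 h1).2]
      · linarith [(abs_le.1 (h2 l h)).2]
  · rintro ⟨h1, h2⟩
    have a1 : ∀ l, (if l = k then c l - η else c l - r) ≤ x l := h1
    have a2 : ∀ l, x l ≤ (if l = k then c l + η else c l + r) := h2
    refine ⟨?_, fun l hl => ?_⟩
    · have b1 := a1 k; have b2 := a2 k
      rw [if_pos rfl] at b1 b2
      exact abs_le.2 ⟨by linarith, by linarith⟩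
    · have b1 := a1 l; have b2 := a2 l
      rw [if_neg hl] at b1 b2
      exact abs_le.2 ⟨by linarith, by linarith⟩

theorem dsk_eq : dsk c k r = plt c k r 0 := by
  ext x
  constructor
  · rintro ⟨h1, h2⟩
    exact ⟨by rw [h1, sub_self, abs_zero], h2⟩
  · rintro ⟨h1, h2⟩
    exact ⟨by linarith [abs_nonpos_iff.1 h1], h2⟩

theorem convex_plt (hη : 0 ≤ η) : Convex ℝ (plt c k r η) := by
  rw [plt_eq hη]; exact convex_Icc _ _

theorem isCompact_plt (hη : 0 ≤ η) : IsCompact (plt c k r η) := by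
  rw [plt_eq hη]; exact isCompact_Icc

theorem isCompact_dsk : IsCompact (dsk c k r) := by
  rw [dsk_eq]; exact isCompact_plt le_rfl

theorem locCone_odsk : LocCone (odsk c k r) := by
  have hc : ∀ l : Fin 3, Continuous fun x : V => x l := fun l => continuous_apply l
  have hl : ∀ l : Fin 3, ConicalOn (fun x : V => x l) univ := fun l =>
    conicalOn_clm (ContinuousLinearMap.proj (R := ℝ) (φ := fun _ : Fin 3 => ℝ) l)
  have e : odsk c k r = {x : V | x k = c k} ∩ ⋂ l : Fin 3, {x : V | l ≠ k → |x l - c l| < r} := by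
    ext x
    exact ⟨fun h => ⟨h.1, mem_iInter.2 h.2⟩, fun h => ⟨h.1, mem_iInter.1 h.2⟩⟩
  rw [e]
  refine (locCone_setOf_eq (hc k) (hl k) (c k)).inter (LocCone.iInter_finite fun l => ?_)
  by_cases h : l = k
  · have : {x : V | l ≠ k → |x l - c l| < r} = univ := by ext x; simp [h]
    rw [this]; exact locCone_univ
  · have : {x : V | l ≠ k → |x l - c l| < r} = {x : V | x l < c l + r} ∩ {x : V | c l - r < x l} := by
      ext x
      constructor
      · intro hx
        have := abs_lt.1 (hx h)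
        exact ⟨by show x l < _; linarith [this.2], by show _ < x l; linarith [this.1]⟩
      · rintro ⟨h1, h2⟩ _
        have h1' : x l < c l + r := h1
        have h2' : c l - r < x l := h2
        exact abs_lt.2 ⟨by linarith, by linarith⟩
    rw [this]
    exact (locCone_setOf_lt (hc l) (hl l) _).inter (locCone_setOf_gt (hc l) (hl l) _)

/-- gluing of the discs -/
theorem exists_glue {Ω Λ X : Set V} {g gi : V → V} (hΩ : IsOpen Ω) (hΛ : IsOpen Λ)
    (hinv : IsInv Ω Λ g gi) (hg : ContinuousOn g Ω) (hgi : ContinuousOn gi Λ) {D : Type*}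
    (c : D → V) (k : D → Fin 3) (r η : D → ℝ) (hη : ∀ d, 0 < η d)
    (hP : ∀ d, plt (c d) (k d) (r d) (η d) ⊆ Ω)
    (hLF : LF (fun d => plt (c d) (k d) (r d) (η d)) Ω)
    (hdis : ∀ d d', d ≠ d' →
      Disjoint (plt (c d) (k d) (r d) (η d)) (plt (c d') (k d') (r d') (η d')))
    (hXΩ : X ⊆ Ω) (hXcl : closure X ∩ Ω ⊆ X) (hXc : ∀ x ∈ X, LocConeAt X x)
    (hdX : ∀ d, dsk (c d) (k d) (r d) ⊆ X)
    (hpX : ∀ d, ∀ x ∈ plo (c d) (k d) (r d) (η d), x ∈ X → x (k d) = c d (k d))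
    (hcon : ∀ x ∈ X, (∀ d, x ∉ odsk (c d) (k d) (r d)) → ConicalWithinAt g Ω x)
    (E : D → Set V) (e : ∀ d, ConHomeo (dsk (c d) (k d) (r d)) (E d))
    (he1 : ∀ d, ∀ x ∈ dsk (c d) (k d) (r d), (∃ l, l ≠ k d ∧ |x l - c d l| = r d) →
      (e d).toFun x = g x)
    (he2 : ∀ d, ∀ x ∈ dsk (c d) (k d) (r d), (∀ l, l ≠ k d → |x l - c d l| < r d) →
      (e d).toFun x ∈ g '' plo (c d) (k d) (r d) (η d)) :
    ∃ (X' : Set V) (φ : ConHomeo X X'), X' ⊆ Λ ∧ closure X' ∩ Λ ⊆ X' ∧
      (∀ x ∈ X, (∀ d, x ∉ dsk (c d) (k d) (r d)) → φ.toFun x = g x) ∧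
      ∀ d, ∀ x ∈ dsk (c d) (k d) (r d), φ.toFun x ∈ g '' plt (c d) (k d) (r d) (η d) := by
  classical
  have ginj : ∀ x ∈ Ω, ∀ y ∈ Ω, g x = g y → x = y := fun x hx y hy h => by
    have := congrArg gi h
    rwa [(hinv.1 x hx).2, (hinv.1 y hy).2] at this
  -- a point of the disc is on the boundary or in the open disc
  have hcase : ∀ d, ∀ x ∈ dsk (c d) (k d) (r d), (∃ l, l ≠ k d ∧ |x l - c d l| = r d) ∨
      ∀ l, l ≠ k d → |x l - c d l| < r d := by
    intro d x hx
    by_cases h : ∃ l, l ≠ k d ∧ |x l - c d l| = r d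
    · exact Or.inl h
    · right
      intro l hl
      exact lt_of_le_of_ne (hx.2 l hl) fun h' => h ⟨l, hl, h'⟩
  have heP : ∀ d, ∀ x ∈ dsk (c d) (k d) (r d), (e d).toFun x ∈
      g '' plt (c d) (k d) (r d) (η d) := by
    intro d x hx
    rcases hcase d x hx with h | h
    · rw [he1 d x hx h]
      exact mem_image_of_mem _ (dsk_sub_plt (hη d).le hx)
    · exact image_mono plo_sub (he2 d x hx h)
  have hEP : ∀ d, E d ⊆ g '' plt (c d) (k d) (r d) (η d) := by
    intro d y hy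
    rw [← (e d).image_eq] at hy
    obtain ⟨x, hx, rfl⟩ := hy
    exact heP d x hx
  -- the complement of the open discs
  let X₀ : Set V := X \ ⋃ d, odsk (c d) (k d) (r d)
  have hX₀ : ∀ x, x ∈ X₀ ↔ x ∈ X ∧ ∀ d, x ∉ odsk (c d) (k d) (r d) := by
    intro x
    constructor
    · rintro ⟨h1, h2⟩
      exact ⟨h1, fun d hd => h2 (mem_iUnion.2 ⟨d, hd⟩)⟩
    · rintro ⟨h1, h2⟩
      refine ⟨h1, fun h => ?_⟩
      obtain ⟨d, hd⟩ := mem_iUnion.1 h
      exact h2 d hd
  have hX₀Ω : X₀ ⊆ Ω := fun x hx => hXΩ hx.1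
  have hX₀cl : ∀ z ∈ Ω, z ∈ closure X₀ → z ∈ X₀ := by
    intro z hz hcl
    rw [hX₀]
    refine ⟨hXcl ⟨closure_mono sdiff_subset hcl, hz⟩, fun d hd => ?_⟩
    obtain ⟨w, hw1, hw2⟩ := mem_closure_iff.1 hcl _ isOpen_plo (odsk_sub_plo (hη d) hd)
    rw [hX₀] at hw2
    exact hw2.2 d ⟨hpX d w hw1 hw2.1, hw1.2⟩
  have hX₀c : ConicalSet X₀ := by
    intro x hx
    have h1 : LocConeAt (⋃ d, odsk (c d) (k d) (r d)) x := by
      apply locConeAt_iUnion
      · obtain ⟨U, hU, hfin⟩ := hLF x (hX₀Ω hx)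
        refine ⟨U, hU, hfin.subset fun d hd => hd.mono (inter_subset_inter_left _ ?_)⟩
        exact odsk_sub.trans (dsk_sub_plt (hη d).le)
      · exact fun d => locCone_odsk x
    have h2 : LocConeAt X₀ x := (hXc x hx.1).inter h1.compl
    exact h2.conicalSetAt hx
  let h₀ : ConHomeo X₀ (g '' X₀) :=
    { toFun := g
      invFun := gi
      mapsTo := mapsTo_image _ _
      mapsTo_inv := by
        rintro _ ⟨x, hx, rfl⟩
        rw [(hinv.1 x (hX₀Ω hx)).2]; exact hx
      left_inv := fun x hx => (hinv.1 x (hX₀Ω hx)).2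
      right_inv := by
        rintro _ ⟨x, hx, rfl⟩
        rw [(hinv.1 x (hX₀Ω hx)).2]
      cont := hg.mono hX₀Ω
      cont_inv := hgi.mono (by rintro _ ⟨x, hx, rfl⟩; exact (hinv.1 x (hX₀Ω hx)).1)
      conical := fun x hx => by
        have hx' := (hX₀ x).1 hx
        exact (hcon x hx'.1 hx'.2).mono_set (hX₀c x hx) hX₀Ω }
  let XX : Option D → Set V := fun o => o.elim X₀ fun d => dsk (c d) (k d) (r d)
  let YY : Option D → Set V := fun o => o.elim (g '' X₀) E
  have hUX : (⋃ o, XX o) = X := by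
    rw [iUnion_option]
    show X₀ ∪ ⋃ d, dsk (c d) (k d) (r d) = X
    apply Subset.antisymm
    · exact union_subset sdiff_subset (iUnion_subset hdX)
    · intro x hx
      by_cases h : x ∈ ⋃ d, odsk (c d) (k d) (r d)
      · right
        obtain ⟨d, hd⟩ := mem_iUnion.1 h
        exact mem_iUnion.2 ⟨d, odsk_sub hd⟩
      · exact Or.inl ⟨hx, h⟩
  have hYΛ : (⋃ o, YY o) ⊆ Λ := by
    rw [iUnion_option]
    show (g '' X₀) ∪ ⋃ d, E d ⊆ Λ
    apply union_subset
    · rintro _ ⟨x, hx, rfl⟩; exact (hinv.1 x (hX₀Ω hx)).1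
    · refine iUnion_subset fun d => (hEP d).trans ?_
      rintro _ ⟨x, hx, rfl⟩; exact (hinv.1 x (hP d hx)).1
  have finOpt : ∀ (Z : Option D → Set V) (U : Set V),
      {i : D | (Z (some i) ∩ U).Nonempty}.Finite → {o | (Z o ∩ U).Nonempty}.Finite := by
    intro Z U hfin
    refine ((hfin.image some).union (finite_singleton (none : Option D))).subset ?_
    intro o ho
    cases o with
    | none => exact Or.inr rfl
    | some i => exact Or.inl ⟨i, ho, rfl⟩
  have hYfin : ∀ z ∈ Λ, ∃ U ∈ 𝓝 z, {o | (YY o ∩ U).Nonempty}.Finite := by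
    intro z hz
    obtain ⟨U, hU, hfin⟩ := hLF (gi z) (hinv.2 z hz).1
    refine ⟨Λ ∩ gi ⁻¹' U, inter_mem (hΛ.mem_nhds hz) ((hgi.continuousAt (hΛ.mem_nhds hz)) hU),
      finOpt YY _ (hfin.subset ?_)⟩
    rintro d ⟨y, hy, -, hyU⟩
    obtain ⟨w, hw, rfl⟩ := hEP d hy
    have hyU' : gi (g w) ∈ U := hyU
    rw [(hinv.1 w (hP d hw)).2] at hyU'
    exact ⟨w, hw, hyU'⟩
  have hYclosed : ∀ o, ∀ z ∈ Λ, z ∈ closure (YY o) → z ∈ YY o := by
    intro o z hz hzo
    cases o with
    | none =>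
      have h1 : z ∈ closure (g '' X₀) := hzo
      have h2 : gi z ∈ closure X₀ := by
        have h3 : ContinuousWithinAt gi (g '' X₀) z :=
          (hgi.continuousAt (hΛ.mem_nhds hz)).continuousWithinAt
        have h4 := h3.mem_closure_image h1
        refine closure_mono ?_ h4
        rintro _ ⟨_, ⟨x, hx, rfl⟩, rfl⟩
        rw [(hinv.1 x (hX₀Ω hx)).2]; exact hx
      have h5 := hX₀cl (gi z) (hinv.2 z hz).1 h2
      exact ⟨gi z, h5, (hinv.2 z hz).2⟩
    | some d =>
      have hcl : IsClosed (E d) := ((e d).isCompact_right isCompact_dsk).isClosed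
      have h1 : z ∈ closure (E d) := hzo
      rw [hcl.closure_eq] at h1
      exact h1
  have hLX : RelLF XX := by
    constructor
    · intro z hz
      rw [hUX] at hz
      obtain ⟨U, hU, hfin⟩ := hLF z (hXΩ hz)
      exact ⟨U, hU, finOpt XX U (hfin.subset fun d hd => hd.mono (inter_subset_inter_left _
        (dsk_sub_plt (hη d).le)))⟩
    · intro o z hz hzo
      rw [hUX] at hz
      cases o with
      | none => exact hX₀cl z (hXΩ hz) hzo
      | some d =>
        have h1 : z ∈ closure (dsk (c d) (k d) (r d)) := hzo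
        rw [isCompact_dsk.isClosed.closure_eq] at h1
        exact h1
  have hLY : RelLF YY := ⟨fun z hz => hYfin z (hYΛ hz), fun o z hz hzo => hYclosed o z (hYΛ hz) hzo⟩
  let hh : ∀ o, ConHomeo (XX o) (YY o) := fun o =>
    match o with
    | none => h₀
    | some d => e d
  -- on the common points both maps are `g`
  have hcommon : ∀ d, ∀ x ∈ dsk (c d) (k d) (r d), x ∈ X₀ → (e d).toFun x = g x := by
    intro d x hx hx0
    rcases hcase d x hx with h | h
    · exact he1 d x hx h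
    · exact absurd ⟨hx.1, h⟩ (((hX₀ x).1 hx0).2 d)
  have hag : ∀ o o', EqOn (hh o).toFun (hh o').toFun (XX o ∩ XX o') := by
    intro o o' x hx
    cases o with
    | none =>
      cases o' with
      | none => rfl
      | some d => exact (hcommon d x hx.2 hx.1).symm
    | some d =>
      cases o' with
      | none => exact hcommon d x hx.1 hx.2
      | some d' =>
        by_cases hdd : d = d'
        · subst hdd; rfl
        · exact absurd (dsk_sub_plt (hη d').le hx.2)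
            (disjoint_left.1 (hdis d d' hdd) (dsk_sub_plt (hη d).le hx.1))
  have hcm : ∀ d, ∀ y, y ∈ g '' X₀ → y ∈ E d → ∃ x, x ∈ X₀ ∧ x ∈ dsk (c d) (k d) (r d) ∧
      g x = y ∧ (e d).toFun x = y := by
    rintro d _ ⟨x, hx, rfl⟩ hy
    rw [← (e d).image_eq] at hy
    obtain ⟨z, hz, hzx⟩ := hy
    rcases hcase d z hz with h | h
    · have h1 := he1 d z hz h
      have h2 : z = x := ginj z (hP d (dsk_sub_plt (hη d).le hz)) x (hX₀Ω hx) (h1.symm.trans hzx)
      subst h2
      exact ⟨z, hx, hz, rfl, hzx⟩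
    · exfalso
      obtain ⟨w, hw, hwz⟩ := he2 d z hz h
      have h2 : w = x := ginj w (hP d (plo_sub hw)) x (hX₀Ω hx) (hwz.trans hzx)
      subst h2
      have h3 := (hX₀ w).1 hx
      exact h3.2 d ⟨hpX d w hw h3.1, hw.2⟩
  have himg : ∀ o o', YY o ∩ YY o' ⊆ (hh o).toFun '' (XX o ∩ XX o') := by
    intro o o' y hy
    cases o with
    | none =>
      cases o' with
      | none =>
        obtain ⟨x, hx, hxy⟩ : y ∈ g '' X₀ := hy.1
        exact ⟨x, ⟨hx, hx⟩, hxy⟩
      | some d =>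
        obtain ⟨x, h1, h2, h3, -⟩ := hcm d y hy.1 hy.2
        exact ⟨x, ⟨h1, h2⟩, h3⟩
    | some d =>
      cases o' with
      | none =>
        obtain ⟨x, h1, h2, -, h3⟩ := hcm d y hy.2 hy.1
        exact ⟨x, ⟨h2, h1⟩, h3⟩
      | some d' =>
        by_cases hdd : d = d'
        · subst hdd
          have hy1 : y ∈ E d := hy.1
          rw [← (e d).image_eq] at hy1
          obtain ⟨x, hx, hxy⟩ := hy1
          exact ⟨x, ⟨hx, hx⟩, hxy⟩
        · exfalso
          obtain ⟨w, hw, hwy⟩ := hEP d hy.1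
          obtain ⟨w', hw', hwy'⟩ := hEP d' hy.2
          have h2 : w = w' := ginj w (hP d hw) w' (hP d' hw') (hwy.trans hwy'.symm)
          subst h2
          exact disjoint_left.1 (hdis d d' hdd) hw hw'
  obtain ⟨Φ, hΦ⟩ := ConHomeo.exists_glue_family hLX hLY hh hag himg
  refine ⟨⋃ o, YY o, Φ.cast hUX rfl, hYΛ, ?_, ?_, ?_⟩
  · rintro z ⟨hz, hzΛ⟩
    obtain ⟨U, hU, hfin⟩ := hYfin z hzΛ
    have h1 : z ∈ closure (⋃ o ∈ {o | (YY o ∩ U).Nonempty}, YY o) := by
      rw [mem_closure_iff_nhds] at hz ⊢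
      intro t ht
      obtain ⟨w, ⟨hwt, hwU⟩, hw⟩ := hz (t ∩ U) (inter_mem ht hU)
      obtain ⟨o, ho⟩ := mem_iUnion.1 hw
      exact ⟨w, hwt, mem_biUnion (show o ∈ {o | (YY o ∩ U).Nonempty} from ⟨w, ho, hwU⟩) ho⟩
    rw [hfin.closure_biUnion] at h1
    obtain ⟨o, -, ho⟩ := mem_iUnion₂.1 h1
    exact mem_iUnion.2 ⟨o, hYclosed o z hzΛ ho⟩
  · intro x hx hxd
    have h1 : x ∈ X₀ := (hX₀ x).2 ⟨hx, fun d hd => hxd d (odsk_sub hd)⟩
    exact (hΦ none).1 h1
  · intro d x hx
    have h1 : Φ.toFun x = (e d).toFun x := (hΦ (some d)).1 hx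
    show Φ.toFun x ∈ _
    rw [h1]
    exact heP d x hx

end Vale.Agent.P073.RT.T4
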