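import Vale.Agent.P073.RT.Rows

/-!
# P073, (RT), row T4: the roofs over the squares of a box complex
-/

open Set Metric Topology Filter

namespace Vale.Agent.P073.RT.T4

open Vale.Agent.P073.St (V)
open _root_.P073.PA691 (BoxCx)
open _root_.P073.PR720 (LF)

variable {Ω : Set V} {v : V} (X : BoxCx Ω v)

/-- the roof over the square `s`: the points which are closer to the plane of the square than to
the other planes -/
def roof (s : X.S) : Set V :=
  {x | (∀ l, l ≠ X.nrm s → |x (X.nrm s) - X.slo s (X.nrm s)| < x l - X.slo s l ∧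
      |x (X.nrm s) - X.slo s (X.nrm s)| < X.shi s l - x l) ∧
    |x (X.nrm s) - X.slo s (X.nrm s)| < (X.hi (X.sm s) (X.nrm s) - X.lo (X.sm s) (X.nrm s)) / 2 ∧
    |x (X.nrm s) - X.slo s (X.nrm s)| < (X.hi (X.sp s) (X.nrm s) - X.lo (X.sp s) (X.nrm s)) / 2}

/-- the open tile -/
def otile (p : X.T) : Set V := {x | ∀ k, X.lo p k < x k ∧ x k < X.hi p k}

theorem isOpen_roof (s : X.S) : IsOpen (roof X s) := by
  have h0 : ∀ k : Fin 3, Continuous fun x : V => x k := fun k => continuous_apply k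
  have h1 : Continuous fun x : V => |x (X.nrm s) - X.slo s (X.nrm s)| :=
    ((h0 _).sub continuous_const).abs
  have e : roof X s = (⋂ l : Fin 3, {x : V | l ≠ X.nrm s →
      |x (X.nrm s) - X.slo s (X.nrm s)| < x l - X.slo s l ∧
      |x (X.nrm s) - X.slo s (X.nrm s)| < X.shi s l - x l}) ∩
      ({x | |x (X.nrm s) - X.slo s (X.nrm s)| <
        (X.hi (X.sm s) (X.nrm s) - X.lo (X.sm s) (X.nrm s)) / 2} ∩
      {x | |x (X.nrm s) - X.slo s (X.nrm s)| <
        (X.hi (X.sp s) (X.nrm s) - X.lo (X.sp s) (X.nrm s)) / 2}) := by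
    ext x
    constructor
    · rintro ⟨a, b, c⟩
      exact ⟨mem_iInter.2 a, b, c⟩
    · rintro ⟨a, b, c⟩
      exact ⟨mem_iInter.1 a, b, c⟩
  rw [e]
  refine IsOpen.inter ?_ ((isOpen_lt h1 continuous_const).inter (isOpen_lt h1 continuous_const))
  refine isOpen_iInter_of_finite fun l => ?_
  by_cases hl : l = X.nrm s
  · have : {x : V | l ≠ X.nrm s → |x (X.nrm s) - X.slo s (X.nrm s)| < x l - X.slo s l ∧
        |x (X.nrm s) - X.slo s (X.nrm s)| < X.shi s l - x l} = univ := by
      ext x; simp [hl]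
    rw [this]; exact isOpen_univ
  · have : {x : V | l ≠ X.nrm s → |x (X.nrm s) - X.slo s (X.nrm s)| < x l - X.slo s l ∧
        |x (X.nrm s) - X.slo s (X.nrm s)| < X.shi s l - x l} =
        {x : V | |x (X.nrm s) - X.slo s (X.nrm s)| < x l - X.slo s l} ∩
        {x : V | |x (X.nrm s) - X.slo s (X.nrm s)| < X.shi s l - x l} := by
      ext x
      exact ⟨fun h => h hl, fun h _ => h⟩
    rw [this]
    exact (isOpen_lt h1 ((h0 l).sub continuous_const)).inter
      (isOpen_lt h1 (continuous_const.sub (h0 l)))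

theorem slo_le_shi (s : X.S) : X.slo s ≤ X.shi s := by
  intro k
  by_cases hk : k = X.nrm s
  · rw [hk]; exact (X.s_flat s).le
  · exact (X.s_lt s k hk).le

theorem sq_sub_sm (s : X.S) : X.sq s ⊆ X.cube (X.sm s) := fun x hx => by
  have : x ∈ Icc (X.slo s) (X.shi s) := hx
  rw [X.s_eq s] at this
  exact this.1

theorem sq_sub_sp (s : X.S) : X.sq s ⊆ X.cube (X.sp s) := fun x hx => by
  have : x ∈ Icc (X.slo s) (X.shi s) := hx
  rw [X.s_eq s] at this
  exact this.2

theorem sq_sub (s : X.S) : X.sq s ⊆ Ω := (sq_sub_sm X s).trans (X.sub _)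

theorem sqo_sub_sq (s : X.S) : X.sqo s ⊆ X.sq s := by
  rintro x ⟨h1, h2⟩
  constructor
  · intro k
    by_cases hk : k = X.nrm s
    · rw [hk, h1]
    · exact (h2 k hk).1.le
  · intro k
    by_cases hk : k = X.nrm s
    · rw [hk, h1]; exact (X.s_flat s).le
    · exact (h2 k hk).2.le

/-- bounds of the square in terms of an adjacent tile -/
theorem bds_sm (s : X.S) (l : Fin 3) :
    X.lo (X.sm s) l ≤ X.slo s l ∧ X.shi s l ≤ X.hi (X.sm s) l :=
  ⟨(sq_sub_sm X s ⟨le_refl _, slo_le_shi X s⟩).1 l, (sq_sub_sm X s ⟨slo_le_shi X s, le_refl _⟩).2 l⟩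

theorem bds_sp (s : X.S) (l : Fin 3) :
    X.lo (X.sp s) l ≤ X.slo s l ∧ X.shi s l ≤ X.hi (X.sp s) l :=
  ⟨(sq_sub_sp X s ⟨le_refl _, slo_le_shi X s⟩).1 l, (sq_sub_sp X s ⟨slo_le_shi X s, le_refl _⟩).2 l⟩

theorem sm_ne_sp (s : X.S) : X.sm s ≠ X.sp s := by
  intro h
  have h1 := (X.s_lev s).1
  have h2 := (X.s_lev s).2
  rw [← h] at h2
  have h3 := X.lt (X.sm s) (X.nrm s)
  rw [h1, h2] at h3
  exact lt_irrefl _ h3

theorem mem_sq_plane {s : X.S} {x : V} (hx : x ∈ X.sq s) : x (X.nrm s) = X.slo s (X.nrm s) :=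
  le_antisymm ((hx.2 _).trans (X.s_flat s).ge) (hx.1 _)

/-- an open tile does not meet the squares -/
theorem otile_sq {p : X.T} {x : V} (hx : x ∈ otile X p) (s : X.S) : x ∉ X.sq s := by
  intro h
  have h1 : p = X.sm s := by
    by_contra hne
    exact X.dis p _ hne x hx (sq_sub_sm X s h)
  have h2 : p = X.sp s := by
    by_contra hne
    exact X.dis p _ hne x hx (sq_sub_sp X s h)
  exact sm_ne_sp X s (h1 ▸ h2)

/-- the trichotomy of the roof -/
theorem roof_cases {s : X.S} {x : V} (hx : x ∈ roof X s) :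
    x ∈ X.sqo s ∨ x ∈ otile X (X.sm s) ∨ x ∈ otile X (X.sp s) := by
  obtain ⟨h1, h2, h3⟩ := hx
  have hl : ∀ l, l ≠ X.nrm s → X.slo s l < x l ∧ x l < X.shi s l := by
    intro l hl
    have h4 := abs_nonneg (x (X.nrm s) - X.slo s (X.nrm s))
    have h5 := h1 l hl
    exact ⟨by linarith [h5.1], by linarith [h5.2]⟩
  rcases lt_trichotomy (x (X.nrm s)) (X.slo s (X.nrm s)) with h | h | h
  · right; left
    intro l
    by_cases hk : l = X.nrm s
    · rw [hk]
      have e := (X.s_lev s).1
      rw [e] at h2 ⊢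
      rw [abs_of_neg (by linarith)] at h2
      have := X.lt (X.sm s) (X.nrm s)
      rw [e] at this
      exact ⟨by linarith, h⟩
    · have h4 := bds_sm X s l
      have h5 := hl l hk
      exact ⟨by linarith [h5.1, h4.1], by linarith [h5.2, h4.2]⟩
  · exact Or.inl ⟨h, hl⟩
  · right; right
    intro l
    by_cases hk : l = X.nrm s
    · rw [hk]
      have e := (X.s_lev s).2
      rw [e] at h3 ⊢
      rw [abs_of_pos (by linarith)] at h3
      have := X.lt (X.sp s) (X.nrm s)
      rw [e] at this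
      exact ⟨h, by linarith⟩
    · have h4 := bds_sp X s l
      have h5 := hl l hk
      exact ⟨by linarith [h5.1, h4.1], by linarith [h5.2, h4.2]⟩

theorem otile_sub_cube (p : X.T) : otile X p ⊆ X.cube p := fun _ hx =>
  ⟨fun k => (hx k).1.le, fun k => (hx k).2.le⟩

theorem roof_sub (s : X.S) : roof X s ⊆ X.cube (X.sm s) ∪ X.cube (X.sp s) := by
  intro x hx
  rcases roof_cases X hx with h | h | h
  · exact Or.inl (sq_sub_sm X s (sqo_sub_sq X s h))
  · exact Or.inl (otile_sub_cube X _ h)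
  · exact Or.inr (otile_sub_cube X _ h)

theorem sqo_sub_roof (s : X.S) : X.sqo s ⊆ roof X s := by
  rintro x ⟨h1, h2⟩
  refine ⟨fun l hl => ?_, ?_, ?_⟩
  · have := h2 l hl
    rw [h1, sub_self, abs_zero]
    exact ⟨by linarith [this.1], by linarith [this.2]⟩
  · rw [h1, sub_self, abs_zero]; linarith [X.lt (X.sm s) (X.nrm s)]
  · rw [h1, sub_self, abs_zero]; linarith [X.lt (X.sp s) (X.nrm s)]

/-- a roof meets only its own square -/
theorem roof_sq {s s' : X.S} {x : V} (hx : x ∈ roof X s) (hx' : x ∈ X.sq s') :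
    s = s' ∧ x ∈ X.sqo s := by
  rcases roof_cases X hx with h | h | h
  · refine ⟨?_, h⟩
    by_contra hne
    exact X.sqo_disj s s' hne x h.1 h.2 hx'
  · exact absurd hx' (otile_sq X h s')
  · exact absurd hx' (otile_sq X h s')

/-- in the open tile `p` the square `s` is in the side `τ` of `p` -/
theorem roof_side {s : X.S} {p : X.T} {x : V} (hp : p = X.sm s ∨ p = X.sp s)
    (hx : x ∈ roof X s) :
    (X.slo s (X.nrm s) = X.hi p (X.nrm s) ∨ X.slo s (X.nrm s) = X.lo p (X.nrm s)) ∧
    |x (X.nrm s) - X.slo s (X.nrm s)| < (X.hi p (X.nrm s) - X.lo p (X.nrm s)) / 2 ∧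
    ∀ l, l ≠ X.nrm s → |x (X.nrm s) - X.slo s (X.nrm s)| < x l - X.lo p l ∧
      |x (X.nrm s) - X.slo s (X.nrm s)| < X.hi p l - x l := by
  rcases hp with rfl | rfl
  · refine ⟨Or.inl (X.s_lev s).1.symm, hx.2.1, fun l hl => ?_⟩
    have h1 := hx.1 l hl
    have h2 := bds_sm X s l
    exact ⟨by linarith [h1.1, h2.1], by linarith [h1.2, h2.2]⟩
  · refine ⟨Or.inr (X.s_lev s).2.symm, hx.2.2, fun l hl => ?_⟩
    have h1 := hx.1 l hl
    have h2 := bds_sp X s l
    exact ⟨by linarith [h1.1, h2.1], by linarith [h1.2, h2.2]⟩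

/-- the roofs are disjoint -/
theorem roof_disj {s s' : X.S} (hne : s ≠ s') : Disjoint (roof X s) (roof X s') := by
  rw [disjoint_left]
  intro x hx hx'
  have key : ∀ p, (p = X.sm s ∨ p = X.sp s) → ∀ p', (p' = X.sm s' ∨ p' = X.sp s') →
      x ∈ otile X p → x ∈ otile X p' → False := by
    intro p hp p' hp' ho ho'
    have hpp : p = p' := by
      by_contra h
      exact X.dis p p' h x ho (otile_sub_cube X _ ho')
    subst hpp
    obtain ⟨a1, a2, a3⟩ := roof_side X hp hx
    obtain ⟨b1, b2, b3⟩ := roof_side X hp' hx'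
    by_cases hk : X.nrm s = X.nrm s'
    · rw [← hk] at b1 b2
      rcases a1 with a1 | a1 <;> rcases b1 with b1 | b1
      · have hlev : X.slo s (X.nrm s) = X.slo s' (X.nrm s') := by rw [a1, ← hk, b1]
        let y : V := Function.update x (X.nrm s) (X.slo s (X.nrm s))
        have hyk : y (X.nrm s) = X.slo s (X.nrm s) := Function.update_self _ _ _
        have hyl : ∀ l, l ≠ X.nrm s → y l = x l := fun l hl => Function.update_of_ne hl _ _
        have h4 := abs_nonneg (x (X.nrm s) - X.slo s (X.nrm s))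
        have h5 := abs_nonneg (x (X.nrm s') - X.slo s' (X.nrm s'))
        have hy : y ∈ X.sqo s := ⟨hyk, fun l hl => by
          rw [hyl l hl]
          have := hx.1 l hl
          exact ⟨by linarith [this.1], by linarith [this.2]⟩⟩
        have hy' : y ∈ X.sqo s' := ⟨by rw [← hk, hyk, hlev, hk], fun l hl => by
          rw [hyl l (hk ▸ hl)]
          have := hx'.1 l hl
          exact ⟨by linarith [this.1], by linarith [this.2]⟩⟩
        exact X.sqo_disj s s' hne y hy.1 hy.2 (sqo_sub_sq X s' hy')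
      · rw [a1] at a2; rw [b1] at b2
        have o := ho (X.nrm s)
        rw [abs_of_neg (by linarith [o.2])] at a2
        rw [abs_of_pos (by linarith [o.1])] at b2
        linarith
      · rw [a1] at a2; rw [b1] at b2
        have o := ho (X.nrm s)
        rw [abs_of_pos (by linarith [o.1])] at a2
        rw [abs_of_neg (by linarith [o.2])] at b2
        linarith
      · have hlev : X.slo s (X.nrm s) = X.slo s' (X.nrm s') := by rw [a1, ← hk, b1]
        let y : V := Function.update x (X.nrm s) (X.slo s (X.nrm s))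
        have hyk : y (X.nrm s) = X.slo s (X.nrm s) := Function.update_self _ _ _
        have hyl : ∀ l, l ≠ X.nrm s → y l = x l := fun l hl => Function.update_of_ne hl _ _
        have h4 := abs_nonneg (x (X.nrm s) - X.slo s (X.nrm s))
        have h5 := abs_nonneg (x (X.nrm s') - X.slo s' (X.nrm s'))
        have hy : y ∈ X.sqo s := ⟨hyk, fun l hl => by
          rw [hyl l hl]
          have := hx.1 l hl
          exact ⟨by linarith [this.1], by linarith [this.2]⟩⟩
        have hy' : y ∈ X.sqo s' := ⟨by rw [← hk, hyk, hlev, hk], fun l hl => by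
          rw [hyl l (hk ▸ hl)]
          have := hx'.1 l hl
          exact ⟨by linarith [this.1], by linarith [this.2]⟩⟩
        exact X.sqo_disj s s' hne y hy.1 hy.2 (sqo_sub_sq X s' hy')
    · have hA : |x (X.nrm s') - X.slo s' (X.nrm s')| < |x (X.nrm s) - X.slo s (X.nrm s)| := by
        have := b3 (X.nrm s) hk
        rcases a1 with a1 | a1
        · calc |x (X.nrm s') - X.slo s' (X.nrm s')| < X.hi p (X.nrm s) - x (X.nrm s) := this.2
            _ = -(x (X.nrm s) - X.slo s (X.nrm s)) := by rw [a1]; ring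
            _ ≤ _ := neg_le_abs _
        · calc |x (X.nrm s') - X.slo s' (X.nrm s')| < x (X.nrm s) - X.lo p (X.nrm s) := this.1
            _ = x (X.nrm s) - X.slo s (X.nrm s) := by rw [a1]
            _ ≤ _ := le_abs_self _
      have hB : |x (X.nrm s) - X.slo s (X.nrm s)| < |x (X.nrm s') - X.slo s' (X.nrm s')| := by
        have := a3 (X.nrm s') (Ne.symm hk)
        rcases b1 with b1 | b1
        · calc |x (X.nrm s) - X.slo s (X.nrm s)| < X.hi p (X.nrm s') - x (X.nrm s') := this.2
            _ = -(x (X.nrm s') - X.slo s' (X.nrm s')) := by rw [b1]; ring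
            _ ≤ _ := neg_le_abs _
        · calc |x (X.nrm s) - X.slo s (X.nrm s)| < x (X.nrm s') - X.lo p (X.nrm s') := this.1
            _ = x (X.nrm s') - X.slo s' (X.nrm s') := by rw [b1]
            _ ≤ _ := le_abs_self _
      exact lt_asymm hA hB
  rcases roof_cases X hx with h | h | h
  · exact hne (roof_sq X hx' (sqo_sub_sq X s h)).1.symm
  · rcases roof_cases X hx' with h' | h' | h'
    · exact hne (roof_sq X hx (sqo_sub_sq X s' h')).1
    · exact key _ (Or.inl rfl) _ (Or.inl rfl) h h'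
    · exact key _ (Or.inl rfl) _ (Or.inr rfl) h h'
  · rcases roof_cases X hx' with h' | h' | h'
    · exact hne (roof_sq X hx (sqo_sub_sq X s' h')).1
    · exact key _ (Or.inr rfl) _ (Or.inl rfl) h h'
    · exact key _ (Or.inr rfl) _ (Or.inr rfl) h h'

/-- the centre of the tile -/
noncomputable def ctr (p : X.T) : V := fun k => (X.lo p k + X.hi p k) / 2

theorem ctr_otile (p : X.T) : ctr X p ∈ otile X p := fun k => by
  have := X.lt p k
  constructor <;> simp only [ctr] <;> linarith

theorem ctr_roof (p : X.T) (s : X.S) : ctr X p ∉ roof X s := by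
  intro h
  have key : ∀ q, (q = X.sm s ∨ q = X.sp s) → ctr X p ∈ otile X q → False := by
    intro q hq ho
    have hpq : p = q := by
      by_contra hne
      exact X.dis p q hne _ (ctr_otile X p) (otile_sub_cube X _ ho)
    subst hpq
    obtain ⟨a1, a2, -⟩ := roof_side X hq h
    have hlt := X.lt p (X.nrm s)
    rcases a1 with a1 | a1
    · rw [a1] at a2
      simp only [ctr] at a2
      rw [abs_of_neg (by linarith)] at a2
      linarith
    · rw [a1] at a2
      simp only [ctr] at a2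
      rw [abs_of_pos (by linarith)] at a2
      linarith
  rcases roof_cases X h with h' | h' | h'
  · exact otile_sq X (ctr_otile X p) s (sqo_sub_sq X s h')
  · exact key _ (Or.inl rfl) h'
  · exact key _ (Or.inr rfl) h'

/-- a tile which contains a point of the open square is adjacent to it -/
theorem adj_of_sqo {s : X.S} {x : V} (hx : x ∈ X.sqo s) {p : X.T} (hp : x ∈ X.cube p) :
    p = X.sm s ∨ p = X.sp s := X.sqo_tile s p x hx.1 hx.2 hp

/-- points of a square which are on no edge are in the open square -/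
theorem sqo_of_edge {s : X.S} {x : V} (hx : x ∈ X.sq s) (he : ∀ e, x ∉ X.edge e) : x ∈ X.sqo s := by
  refine ⟨mem_sq_plane X hx, fun k hk => ⟨?_, ?_⟩⟩
  · refine lt_of_le_of_ne (hx.1 k) fun h => ?_
    obtain ⟨e, -, h2⟩ := X.sq_bd s x hx ⟨k, hk, Or.inl h.symm⟩
    exact he e h2
  · refine lt_of_le_of_ne (hx.2 k) fun h => ?_
    obtain ⟨e, -, h2⟩ := X.sq_bd s x hx ⟨k, hk, Or.inr h⟩
    exact he e h2

/-- a locally finite family meets a compact set in finitely many members -/
theorem LF_compact {ι : Type*} {A : ι → Set V} {W C : Set V} (h : LF A W) (hC : IsCompact C)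
    (hCW : C ⊆ W) : {i | (A i ∩ C).Nonempty}.Finite := by
  choose! U hU hfin using h
  obtain ⟨t, ht, hcov⟩ := hC.elim_nhds_subcover U fun z hz => hU z (hCW hz)
  refine ((t.finite_toSet).biUnion fun z hz => hfin z (hCW (ht z hz))).subset ?_
  rintro i ⟨y, hyA, hyC⟩
  obtain ⟨z, hz, hyz⟩ := mem_iUnion₂.1 (hcov hyC)
  exact mem_biUnion hz ⟨y, hyA, hyz⟩

/-- finitely many squares are adjacent to a tile -/
theorem adj_finite (p : X.T) : {s | X.sm s = p ∨ X.sp s = p}.Finite := by
  have h1 : IsCompact (X.cube p) := isCompact_Icc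
  refine (LF_compact X.lfS h1 (X.sub p)).subset ?_
  rintro s (rfl | rfl)
  · exact ⟨X.slo s, ⟨le_refl _, slo_le_shi X s⟩, sq_sub_sm X s ⟨le_refl _, slo_le_shi X s⟩⟩
  · exact ⟨X.slo s, ⟨le_refl _, slo_le_shi X s⟩, sq_sub_sp X s ⟨le_refl _, slo_le_shi X s⟩⟩

/-- families of sets over the squares, in the adjacent tiles -/
theorem LF_adj : LF (fun s => X.cube (X.sm s) ∪ X.cube (X.sp s)) Ω := by
  intro z hz
  obtain ⟨U, hU, hfin⟩ := X.lfT z hz
  refine ⟨U, hU, (hfin.biUnion fun p _ => adj_finite X p).subset ?_⟩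
  rintro s ⟨y, hy | hy, hyU⟩
  · exact mem_biUnion (show X.sm s ∈ {p | (Icc (X.lo p) (X.hi p) ∩ U).Nonempty} from
      ⟨y, hy, hyU⟩) (Or.inl rfl)
  · exact mem_biUnion (show X.sp s ∈ {p | (Icc (X.lo p) (X.hi p) ∩ U).Nonempty} from
      ⟨y, hy, hyU⟩) (Or.inr rfl)

/-- families of sets over the tiles, in the neighbouring tiles -/
theorem LF_nbr (W : X.T → Set V)
    (hW : ∀ p, ∀ x ∈ W p, x ∈ X.cube p ∨ ∃ s, (X.sm s = p ∨ X.sp s = p) ∧
      x ∈ X.cube (X.sm s) ∪ X.cube (X.sp s)) : LF W Ω := by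
  intro z hz
  obtain ⟨U, hU, hfin⟩ := X.lfT z hz
  refine ⟨U, hU, (hfin.union (hfin.biUnion fun p _ => (adj_finite X p).biUnion fun s _ =>
    toFinite {X.sm s, X.sp s})).subset ?_⟩
  rintro p ⟨y, hy, hyU⟩
  rcases hW p y hy with h | ⟨s, hs, h⟩
  · exact Or.inl ⟨y, h, hyU⟩
  · right
    have hps : p ∈ ({X.sm s, X.sp s} : Set X.T) := by
      rcases hs with rfl | rfl
      · exact Or.inl rfl
      · exact Or.inr rfl
    rcases h with h | h
    · exact mem_biUnion (show X.sm s ∈ {p | (Icc (X.lo p) (X.hi p) ∩ U).Nonempty} from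
        ⟨y, h, hyU⟩) (mem_biUnion (show s ∈ {s' | X.sm s' = X.sm s ∨ X.sp s' = X.sm s} from
          Or.inl rfl) hps)
    · exact mem_biUnion (show X.sp s ∈ {p | (Icc (X.lo p) (X.hi p) ∩ U).Nonempty} from
        ⟨y, h, hyU⟩) (mem_biUnion (show s ∈ {s' | X.sm s' = X.sp s ∨ X.sp s' = X.sp s} from
          Or.inr rfl) hps)

/-- the open tile is the interior of the tile -/
theorem interior_cube (p : X.T) : interior (X.cube p) = otile X p := by
  have h1 : X.cube p = Set.pi univ fun k => Icc (X.lo p k) (X.hi p k) :=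
    (pi_univ_Icc _ _).symm
  rw [h1, interior_pi_set finite_univ]
  ext x
  constructor
  · intro h k
    have h2 : x k ∈ interior (Icc (X.lo p k) (X.hi p k)) := h k (mem_univ k)
    rw [interior_Icc] at h2
    exact h2
  · intro h k _
    show x k ∈ interior (Icc (X.lo p k) (X.hi p k))
    rw [interior_Icc]
    exact h k

theorem frontier_cube (p : X.T) : frontier (X.cube p) = X.cube p \ otile X p := by
  have h1 : IsClosed (X.cube p) := isClosed_Icc
  rw [frontier, h1.closure_eq, interior_cube]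

/-- the squares are in the frontiers of the tiles -/
theorem sq_inter_cube {s : X.S} {p : X.T} {x : V} (hx : x ∈ X.sq s) (hp : x ∈ X.cube p) :
    x ∈ frontier (X.cube p) := by
  rw [frontier_cube]
  exact ⟨hp, fun h => otile_sq X h s hx⟩

end Vale.Agent.P073.RT.T4
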