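import Vale.Agent.P073.RT.H694.Roof
import Vale.Agent.P073.RT.H694.Glue
import Vale.Agent.P073.IoD

/-!
# P073, (RT), row T4: the new homeomorphism
-/

open Set Metric Topology Filter MeasureTheory

namespace Vale.Agent.P073.RT.T4

open _root_.P073
open Vale.Agent.P073.St (V IsInv)
open _root_.P073.PA691 (BoxCx Cells SpecASM)
open _root_.P073.PR720 (LF)

/-- two homeomorphisms which agree on the frontier of a tile and which are in the same image -/
theorem image_eq {Ω Λ Q O : Set V} {g gi : V → V} (hinv : IsInv Ω Λ g gi)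
    (hgi : ContinuousOn gi Λ) (h : ConHomeo Ω Λ) (hQ : IsCompact Q) (hQΩ : Q ⊆ Ω)
    (hO : interior Q = O) (hOc : IsPreconnected O) (hOn : O.Nonempty)
    (hfr : ∀ x ∈ Q, x ∉ O → h.toFun x = g x) (hin : ∀ x ∈ Q, gi (h.toFun x) ∈ Q) :
    h.toFun '' Q = g '' Q := by
  have hOQ : O ⊆ Q := hO ▸ interior_subset
  have hOo : IsOpen O := hO ▸ isOpen_interior
  have hc : ContinuousOn (fun x => gi (h.toFun x)) Q :=
    hgi.comp (h.cont.mono hQΩ) fun x hx => h.mapsTo (hQΩ hx)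
  have hinj : InjOn (fun x => gi (h.toFun x)) Q := by
    intro x hx y hy hxy
    have h1 : g (gi (h.toFun x)) = g (gi (h.toFun y)) := congrArg g hxy
    rw [(hinv.2 _ (h.mapsTo (hQΩ hx))).2, (hinv.2 _ (h.mapsTo (hQΩ hy))).2] at h1
    exact h.injOn (hQΩ hx) (hQΩ hy) h1
  have hA : IsOpen ((fun x => gi (h.toFun x)) '' O) :=
    Sep.isOpen_image_of_injOn hOo (hc.mono hOQ) (hinj.mono hOQ)
  have hAQ : (fun x => gi (h.toFun x)) '' O ⊆ Q := by
    rintro _ ⟨x, hx, rfl⟩; exact hin x (hOQ hx)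
  have hAO : (fun x => gi (h.toFun x)) '' O ⊆ O := by
    rw [← hO]; rw [hO]; exact (interior_maximal hAQ hA).trans hO.subset
  have hsub : O ⊆ (fun x => gi (h.toFun x)) '' O := by
    refine hOc.subset_of_closure_inter_subset hA ?_ ?_
    · obtain ⟨x, hx⟩ := hOn
      exact ⟨_, hAO (mem_image_of_mem _ hx), mem_image_of_mem _ hx⟩
    · rintro z ⟨hz, hzO⟩
      have h1 : IsClosed ((fun x => gi (h.toFun x)) '' Q) :=
        (hQ.image_of_continuousOn hc).isClosed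
      have h2 : z ∈ (fun x => gi (h.toFun x)) '' Q := by
        have := closure_mono (image_mono hOQ) hz
        rwa [h1.closure_eq] at this
      obtain ⟨x, hx, rfl⟩ := h2
      by_cases hxO : x ∈ O
      · exact mem_image_of_mem _ hxO
      · exfalso
        have h3 : gi (h.toFun x) = x := by
          rw [hfr x hx hxO]; exact (hinv.1 x (hQΩ hx)).2
        apply hxO
        have hzO' : gi (h.toFun x) ∈ O := hzO
        rwa [h3] at hzO'
  apply Subset.antisymm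
  · rintro _ ⟨x, hx, rfl⟩
    exact ⟨_, hin x hx, (hinv.2 _ (h.mapsTo (hQΩ hx))).2⟩
  · rintro _ ⟨x, hx, rfl⟩
    by_cases hxO : x ∈ O
    · obtain ⟨w, hw, hwx⟩ := hsub hxO
      refine ⟨w, hOQ hw, ?_⟩
      have hwx' : gi (h.toFun w) = x := hwx
      rw [← hwx', (hinv.2 _ (h.mapsTo (hQΩ (hOQ hw)))).2]
    · exact ⟨x, hx, hfr x hx hxO⟩

/-- the second gluing: back to `g` on the tiles of the family `B` -/
theorem exists_back {Ω Λ : Set V} {v : V} (X : BoxCx Ω v) {g gi : V → V} (hΛ : IsOpen Λ)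
    (hinv : IsInv Ω Λ g gi) (hg : ContinuousOn g Ω) (hgi : ContinuousOn gi Λ) (B : X.T → Prop)
    (h : ConHomeo Ω Λ) (hfr : ∀ p, B p → ∀ x ∈ frontier (X.cube p), h.toFun x = g x)
    (himg : ∀ p, B p → h.toFun '' X.cube p = g '' X.cube p)
    (hcon : ∀ p, B p → ∀ x ∈ X.cube p, ConicalWithinAt g Ω x) :
    ∃ h' : ConHomeo Ω Λ, (∀ p, B p → ∀ x ∈ X.cube p, h'.toFun x = g x) ∧
      ∀ p, ¬ B p → ∀ x ∈ X.cube p, h'.toFun x = h.toFun x := by
  classical
  have hcQ : ∀ p, X.cube p ⊆ Ω := X.sub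
  have hcc : ∀ p, IsCompact (X.cube p) := fun p => isCompact_Icc
  have hcs : ∀ p, ConicalSet (X.cube p) := fun p => (convex_Icc _ _).conicalSet
  let G : ∀ p, B p → ConHomeo (X.cube p) (h.toFun '' X.cube p) := fun p hp =>
    { toFun := g
      invFun := gi
      mapsTo := fun x hx => by rw [himg p hp]; exact mem_image_of_mem _ hx
      mapsTo_inv := by
        rw [himg p hp]
        rintro _ ⟨x, hx, rfl⟩
        rw [(hinv.1 x (hcQ p hx)).2]; exact hx
      left_inv := fun x hx => (hinv.1 x (hcQ p hx)).2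
      right_inv := by
        rw [himg p hp]
        rintro _ ⟨x, hx, rfl⟩
        rw [(hinv.1 x (hcQ p hx)).2]
      cont := hg.mono (hcQ p)
      cont_inv := hgi.mono (by
        rw [himg p hp]
        rintro _ ⟨x, hx, rfl⟩; exact (hinv.1 x (hcQ p hx)).1)
      conical := fun x hx => (hcon p hp x hx).mono_set (hcs p x hx) (hcQ p) }
  let hh : ∀ p, ConHomeo (X.cube p) (h.toFun '' X.cube p) := fun p =>
    if hp : B p then G p hp else h.restr (hcs p) (hcQ p)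
  have hh1 : ∀ p, B p → ∀ x, (hh p).toFun x = g x := by
    intro p hp x
    simp only [hh, dif_pos hp, G]
  have hh2 : ∀ p, ¬ B p → ∀ x, (hh p).toFun x = h.toFun x := by
    intro p hp x
    simp only [hh, dif_neg hp, ConHomeo.restr_toFun]
  have hbd : ∀ p q, p ≠ q → ∀ x ∈ X.cube p ∩ X.cube q, x ∈ frontier (X.cube p) := by
    intro p q hpq x hx
    rw [frontier_cube]
    exact ⟨hx.1, fun ho => X.dis p q hpq x ho hx.2⟩
  have hsame : ∀ p q, p ≠ q → ∀ x ∈ X.cube p ∩ X.cube q, (hh p).toFun x = h.toFun x := by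
    intro p q hpq x hx
    by_cases hp : B p
    · rw [hh1 p hp, hfr p hp x (hbd p q hpq x hx)]
    · exact hh2 p hp x
  have hUX : (⋃ p, X.cube p) = Ω := by
    apply Subset.antisymm (iUnion_subset hcQ)
    intro x hx
    obtain ⟨p, hp⟩ := X.cover x hx
    exact mem_iUnion.2 ⟨p, hp⟩
  have hUY : (⋃ p, h.toFun '' X.cube p) = Λ := by
    rw [← image_iUnion, hUX, h.image_eq]
  have hLX : RelLF X.cube := by
    constructor
    · intro z hz
      rw [hUX] at hz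
      exact X.lfT z hz
    · intro p z _ hz
      rwa [(hcc p).isClosed.closure_eq] at hz
  have hLY : RelLF fun p => h.toFun '' X.cube p := by
    constructor
    · intro z hz
      rw [hUY] at hz
      obtain ⟨U, hU, hfin⟩ := X.lfT (h.invFun z) (h.mapsTo_inv hz)
      refine ⟨Λ ∩ h.invFun ⁻¹' U, inter_mem (hΛ.mem_nhds hz)
        ((h.cont_inv.continuousAt (hΛ.mem_nhds hz)) hU), hfin.subset ?_⟩
      rintro p ⟨y, ⟨w, hw, rfl⟩, -, hyU⟩
      have hyU' : h.invFun (h.toFun w) ∈ U := hyU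
      rw [h.left_inv (hcQ p hw)] at hyU'
      exact ⟨w, hw, hyU'⟩
    · intro p z _ hz
      have h1 : IsClosed (h.toFun '' X.cube p) :=
        ((hcc p).image_of_continuousOn (h.cont.mono (hcQ p))).isClosed
      have h2 : z ∈ closure (h.toFun '' X.cube p) := hz
      rwa [h1.closure_eq] at h2
  have hag : ∀ p q, EqOn (hh p).toFun (hh q).toFun (X.cube p ∩ X.cube q) := by
    intro p q x hx
    by_cases hpq : p = q
    · subst hpq; rfl
    · rw [hsame p q hpq x hx, hsame q p (Ne.symm hpq) x ⟨hx.2, hx.1⟩]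
  have himg' : ∀ p q, (h.toFun '' X.cube p) ∩ (h.toFun '' X.cube q) ⊆
      (hh p).toFun '' (X.cube p ∩ X.cube q) := by
    intro p q y hy
    by_cases hpq : p = q
    · subst hpq
      have h1 := hy.1
      rw [← (hh p).image_eq] at h1
      rwa [inter_self]
    · obtain ⟨⟨x, hx, rfl⟩, ⟨x', hx', hxx⟩⟩ := hy
      have h1 : x' = x := h.injOn (hcQ q hx') (hcQ p hx) hxx
      subst h1
      exact ⟨x', ⟨hx, hx'⟩, hsame p q hpq x' ⟨hx, hx'⟩⟩
  obtain ⟨Φ, hΦ⟩ := ConHomeo.exists_glue_family hLX hLY hh hag himg'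
  refine ⟨Φ.cast hUX hUY, ?_, ?_⟩
  · intro p hp x hx
    show Φ.toFun x = g x
    rw [(hΦ p).1 hx, hh1 p hp]
  · intro p hp x hx
    show Φ.toFun x = h.toFun x
    rw [(hΦ p).1 hx, hh2 p hp]

theorem ctr_frontier {Ω : Set V} {v : V} (X : BoxCx Ω v) (p : X.T) :
    ctr X p ∉ frontier (X.cube p) := by
  intro h
  rw [frontier_cube] at h
  exact h.2 (ctr_otile X p)

/-- points of the open square off finitely many closed discs in the open square -/
theorem exists_q {Ω : Set V} {v : V} (X : BoxCx Ω v) (s : X.S) (C : Set V) (hC : IsClosed C)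
    (hCs : C ⊆ X.sqo s) : ∃ q ∈ X.sqo s, q ∉ C := by
  have h1 : X.slo s ∉ C := by
    intro h
    have h2 := hCs h
    obtain ⟨l, hl⟩ : ∃ l : Fin 3, l ≠ X.nrm s := exists_ne _
    exact lt_irrefl _ (h2.2 l hl).1
  have h2 : Continuous fun t : ℝ => X.slo s + t • (X.shi s - X.slo s) := by fun_prop
  have h3 : ∀ᶠ t : ℝ in 𝓝 0, X.slo s + t • (X.shi s - X.slo s) ∈ Cᶜ := by
    apply h2.continuousAt
    have e0 : (fun t : ℝ => X.slo s + t • (X.shi s - X.slo s)) 0 = X.slo s := by simp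
    rw [e0]
    exact hC.isOpen_compl.mem_nhds h1
  have h4 : ∀ᶠ t : ℝ in 𝓝[>] 0, X.slo s + t • (X.shi s - X.slo s) ∈ Cᶜ :=
    h3.filter_mono nhdsWithin_le_nhds
  obtain ⟨t, ht, ht0⟩ := (h4.and (Ioo_mem_nhdsGT (zero_lt_one' ℝ))).exists
  refine ⟨_, ⟨?_, fun l hl => ?_⟩, ht⟩
  · have := X.s_flat s
    simp only [Pi.add_apply, Pi.smul_apply, Pi.sub_apply, smul_eq_mul]
    rw [this]; ring
  · have h5 := X.s_lt s l hl
    simp only [Pi.add_apply, Pi.smul_apply, Pi.sub_apply, smul_eq_mul]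
    have h6 : 0 < t * (X.shi s l - X.slo s l) := mul_pos ht0.1 (by linarith)
    have h7 : t * (X.shi s l - X.slo s l) < 1 * (X.shi s l - X.slo s l) :=
      mul_lt_mul_of_pos_right ht0.2 (by linarith)
    constructor <;> linarith

/-- **Row T4** -/
theorem specTop (hASM : SpecASM) (hT1 : SpecCells) (hT2 : SpecDR) (hT3 : SpecSquares) :
    SpecTop := by
  classical
  intro Ω Λ K N g v X hΩ hΩc hΛ hΛc hK hKo hg hcon hApp hKe hKn hN hNΩ hKN
  obtain ⟨gi, hinv, hgc, hgic⟩ := hg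
  have hCF := hT1 Ω v X hΩ
  -- the discs
  have hKsq : ∀ s, K ∩ (N ∩ roof X s) ∩ {x | x (X.nrm s) = X.slo s (X.nrm s)} = K ∩ X.sq s := by
    intro s
    ext x
    constructor
    · rintro ⟨⟨h1, -, h2⟩, h3⟩
      have h3' : x (X.nrm s) = X.slo s (X.nrm s) := h3
      refine ⟨h1, sqo_sub_sq X s ⟨h3', fun l hl => ?_⟩⟩
      have h4 := h2.1 l hl
      rw [h3', sub_self, abs_zero] at h4
      exact ⟨by linarith [h4.1], by linarith [h4.2]⟩
    · rintro ⟨h1, h2⟩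
      have h3 := sqo_of_edge X h2 (hKe x h1)
      exact ⟨⟨h1, hKN s ⟨h1, h2⟩, sqo_sub_roof X s h3⟩, h3.1⟩
  have hKcl : ∀ C ⊆ Ω, IsCompact C → IsCompact (K ∩ C) := by
    intro C hC hCc
    have : K ∩ C = C \ (Ω \ K) := by
      ext x
      exact ⟨fun h => ⟨h.2, fun h' => h'.2 h.1⟩, fun h => ⟨by
        by_contra hx; exact h.2 ⟨hC h.1, hx⟩, h.1⟩⟩
    rw [this]
    exact hCc.diff hKo
  have key : ∀ s, ∃ (F : Finset V) (r η : ℝ), 0 < η ∧ 2 * η < r ∧
      (∀ c ∈ F, c (X.nrm s) = X.slo s (X.nrm s)) ∧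
      (∀ c ∈ F, plt c (X.nrm s) (r + 2 * η) (2 * η) ⊆ N ∩ roof X s) ∧
      (∀ c ∈ F, ∀ c' ∈ F, c ≠ c' →
        Disjoint (plt c (X.nrm s) (r + 2 * η) (2 * η)) (plt c' (X.nrm s) (r + 2 * η) (2 * η))) ∧
      (∀ c ∈ F, ∀ x ∈ plt c (X.nrm s) (r + 2 * η) (2 * η),
        (∃ l, l ≠ X.nrm s ∧ r - 2 * η ≤ |x l - c l|) → x ∉ K) ∧
      (∀ c ∈ F, (dsk c (X.nrm s) r ∩ K).Nonempty) ∧
      ∀ x ∈ K ∩ (N ∩ roof X s) ∩ {x | x (X.nrm s) = X.slo s (X.nrm s)},
        ∃ c ∈ F, ∀ l, l ≠ X.nrm s → |x l - c l| < r := by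
    intro s
    refine hT3 K (N ∩ roof X s) (X.nrm s) (X.slo s (X.nrm s)) (hN.inter (isOpen_roof X s)) ?_ ?_ ?_
    · have : (N ∩ roof X s) \ K = (N ∩ roof X s) ∩ (Ω \ K) := by
        ext x
        exact ⟨fun h => ⟨h.1, hNΩ h.1.1, h.2⟩, fun h => ⟨h.1, h.2.2⟩⟩
      rw [this]
      exact (hN.inter (isOpen_roof X s)).inter hKo
    · rw [hKsq]; exact hKcl _ (sq_sub X s) isCompact_Icc
    · rw [hKsq]; exact hKn s
  choose F r η hη hηr hFc hFN hFd hFK hFne hFcov using key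
  let D : Type := Σ s : X.S, {c // c ∈ F s}
  let kk : D → Fin 3 := fun d => X.nrm d.1
  let cc : D → V := fun d => d.2.1
  let rr : D → ℝ := fun d => r d.1
  let ee : D → ℝ := fun d => η d.1
  have hbig : ∀ d : D, plt (cc d) (kk d) (rr d) (ee d) ⊆
      plt (cc d) (kk d) (rr d + 2 * ee d) (2 * ee d) := by
    intro d x hx
    have h0 := hη d.1
    exact ⟨hx.1.trans (by show ee d ≤ 2 * ee d; simp only [ee]; linarith), fun l hl =>
      (hx.2 l hl).trans (by simp only [ee]; linarith)⟩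
  have hPr : ∀ d : D, plt (cc d) (kk d) (rr d) (ee d) ⊆ roof X d.1 := fun d =>
    (hbig d).trans fun x hx => (hFN d.1 d.2.1 d.2.2 hx).2
  have hPN : ∀ d : D, plt (cc d) (kk d) (rr d) (ee d) ⊆ N := fun d =>
    (hbig d).trans fun x hx => (hFN d.1 d.2.1 d.2.2 hx).1
  have hPΩ : ∀ d : D, plt (cc d) (kk d) (rr d) (ee d) ⊆ Ω := fun d => (hPN d).trans hNΩ
  have hdP : ∀ d : D, dsk (cc d) (kk d) (rr d) ⊆ plt (cc d) (kk d) (rr d) (ee d) := fun d =>
    dsk_sub_plt (hη d.1).le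
  have hdsqo : ∀ d : D, dsk (cc d) (kk d) (rr d) ⊆ X.sqo d.1 := by
    intro d x hx
    have h1 := hPr d (hdP d hx)
    have h2 : x (X.nrm d.1) = X.slo d.1 (X.nrm d.1) := by
      have := hx.1
      rw [show x (X.nrm d.1) = cc d (kk d) from hx.1]
      exact hFc d.1 d.2.1 d.2.2
    refine ⟨h2, fun l hl => ?_⟩
    have h3 := h1.1 l hl
    rw [h2, sub_self, abs_zero] at h3
    exact ⟨by linarith [h3.1], by linarith [h3.2]⟩
  have hdis : ∀ d d' : D, d ≠ d' → Disjoint (plt (cc d) (kk d) (rr d) (ee d))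
      (plt (cc d') (kk d') (rr d') (ee d')) := by
    rintro ⟨s, c, hc⟩ ⟨s', c', hc'⟩ hne
    by_cases hs : s = s'
    · subst hs
      have hcc : c ≠ c' := by
        rintro rfl
        exact hne rfl
      exact (hFd s c hc c' hc' hcc).mono (hbig ⟨s, c, hc⟩) (hbig ⟨s, c', hc'⟩)
    · exact (roof_disj X hs).mono (hPr ⟨s, c, hc⟩) (hPr ⟨s', c', hc'⟩)
  have hLF : LF (fun d : D => plt (cc d) (kk d) (rr d) (ee d)) Ω := by
    refine LF.of_cover (LF_adj X) (fun (d : D) (s : X.S) => d.1 = s) (fun d =>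
      ⟨d.1, rfl, (hPr d).trans (roof_sub X d.1)⟩) fun s => ?_
    have : {d : D | d.1 = s} ⊆ (fun c : {c // c ∈ F s} => (⟨s, c⟩ : D)) '' univ := by
      rintro ⟨s', c⟩ hd
      have hd' : s' = s := hd
      subst hd'
      exact ⟨c, mem_univ _, rfl⟩
    exact (finite_univ.image _).subset this
  have hT2' : ∀ d : D, ∃ (E : Set V) (e : ConHomeo (dsk (cc d) (kk d) (rr d)) E),
      (∀ x ∈ dsk (cc d) (kk d) (rr d), (∃ l, l ≠ kk d ∧ |x l - cc d l| = rr d) →
        e.toFun x = g x) ∧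
      ∀ x ∈ dsk (cc d) (kk d) (rr d), (∀ l, l ≠ kk d → |x l - cc d l| < rr d) →
        e.toFun x ∈ g '' plo (cc d) (kk d) (rr d) (ee d) := by
    intro d
    exact hT2 Ω Λ K g (cc d) (kk d) (rr d) (ee d) hΩ hΛ hK hKo ⟨gi, hinv, hgc, hgic⟩ hcon hApp
      (hη d.1) (hηr d.1) (fun x hx => hNΩ (hFN d.1 d.2.1 d.2.2 hx).1) (hFK d.1 d.2.1 d.2.2)
  choose E e he1 he2 using hT2'
  -- the skeleton
  let KC : Cells Ω := cellsOf X hCF
  have hSk : ∀ x, x ∈ KC.X ↔ ∃ s, x ∈ X.sq s := by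
    intro x
    constructor
    · intro hx
      obtain ⟨p, hp⟩ := mem_iUnion.1 hx
      obtain ⟨s, -, hs⟩ := hCF.bdry p x hp
      exact ⟨s, hs⟩
    · rintro ⟨s, hs⟩
      exact mem_iUnion.2 ⟨X.sm s, sq_inter_cube X hs (sq_sub_sm X s hs)⟩
  have hfrc : ∀ p, frontier (X.cube p) ⊆ X.cube p := fun p =>
    (isClosed_Icc : IsClosed (X.cube p)).frontier_subset
  have hLFfr : LF (fun p => frontier (X.cube p)) Ω := LF.subset hCF.lf hfrc
  have hXΩ : KC.X ⊆ Ω := fun x hx => by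
    obtain ⟨s, hs⟩ := (hSk x).1 hx
    exact sq_sub X s hs
  have hXcl : closure KC.X ∩ Ω ⊆ KC.X := fun z hz =>
    LF.closed hLFfr (fun p => isClosed_frontier) hz.2 hz.1
  have hXc : ∀ x ∈ KC.X, LocConeAt KC.X x := fun x hx =>
    locConeAt_iUnion (hLFfr x (hXΩ hx)) fun p => (locCone_Icc_pi _ _).frontier x
  obtain ⟨X', φ, hX'Λ, hX'cl, hφ1, hφ2⟩ := exists_glue hΩ hΛ hinv hgc hgic cc kk rr ee
    (fun d => hη d.1) hPΩ hLF hdis hXΩ hXcl hXc
    (fun d x hx => (hSk x).2 ⟨d.1, sqo_sub_sq X d.1 (hdsqo d hx)⟩)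
    (fun d x hx hxX => by
      obtain ⟨s, hs⟩ := (hSk x).1 hxX
      have h1 := (roof_sq X (hPr d (plo_sub hx)) hs).2
      rw [show x (kk d) = X.slo d.1 (X.nrm d.1) from h1.1]
      exact (hFc d.1 d.2.1 d.2.2).symm)
    (fun x hx hxd => by
      refine hcon x ⟨hXΩ hx, fun hxK => ?_⟩
      obtain ⟨s, hs⟩ := (hSk x).1 hx
      have h1 : x ∈ K ∩ (N ∩ roof X s) ∩ {x | x (X.nrm s) = X.slo s (X.nrm s)} := by
        rw [hKsq]; exact ⟨hxK, hs⟩
      obtain ⟨c, hc, hcl⟩ := hFcov s x h1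
      refine hxd ⟨s, c, hc⟩ ⟨?_, hcl⟩
      rw [show x (kk ⟨s, c, hc⟩) = X.slo s (X.nrm s) from h1.2]
      exact (hFc s c hc).symm)
    E e he1 he2
  -- the sets `W`
  let W : KC.J → Set V := fun p => frontier (X.cube p) ∪
    ⋃ d : D, ⋃ (_ : X.sm d.1 = p ∨ X.sp d.1 = p), plt (cc d) (kk d) (rr d) (ee d)
  have hWmem : ∀ p x, x ∈ W p ↔ x ∈ frontier (X.cube p) ∨
      ∃ d : D, (X.sm d.1 = p ∨ X.sp d.1 = p) ∧ x ∈ plt (cc d) (kk d) (rr d) (ee d) := by
    intro p x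
    simp only [W, mem_union, mem_iUnion, exists_prop]
  have hqex : ∀ s : X.S, ∃ q ∈ X.sqo s, ∀ d : D, q ∉ dsk (cc d) (kk d) (rr d) := by
    intro s
    obtain ⟨q, hq, hqC⟩ := exists_q X s (⋃ c : {c // c ∈ F s}, dsk c.1 (X.nrm s) (r s))
      (isClosed_iUnion_of_finite fun c => isCompact_dsk.isClosed)
      (iUnion_subset fun c => hdsqo ⟨s, c⟩)
    refine ⟨q, hq, ?_⟩
    rintro ⟨s', c⟩ hd
    have h1 := hdsqo ⟨s', c⟩ hd
    have hss : s = s' := (roof_sq X (sqo_sub_roof X s hq) (sqo_sub_sq X s' h1)).1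
    subst hss
    exact hqC (mem_iUnion.2 ⟨c, hd⟩)
  choose q hq1 hq2 using hqex
  have hadj : ∀ (s : X.S) p, X.sm s = p ∨ X.sp s = p → X.sq s ⊆ frontier (X.cube p) := by
    rintro s p (rfl | rfl) x hx
    · exact sq_inter_cube X hx (sq_sub_sm X s hx)
    · exact sq_inter_cube X hx (sq_sub_sp X s hx)
  have hgq : ∀ s, gi (φ.toFun (q s)) = q s := by
    intro s
    have h1 : q s ∈ KC.X := (hSk _).2 ⟨s, sqo_sub_sq X s (hq1 s)⟩
    rw [hφ1 _ h1 (hq2 s)]
    exact (hinv.1 _ (hXΩ h1)).2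
  obtain ⟨hA, hA1, hA2⟩ := hASM Λ Ω gi g KC X' φ W (fun p => ctr X p) q hΛ hΛc hΩ
    ⟨hinv.2, hinv.1⟩ hgic hgc hX'Λ hX'cl
    (by
      intro p x hx
      rcases (hWmem p x).1 hx with h | ⟨d, -, h⟩
      · exact X.sub p (hfrc p h)
      · exact hPΩ d h)
    (by
      refine LF_nbr X _ fun p x hx => ?_
      rcases hx with h | h
      · exact Or.inl h
      · rcases (hWmem p x).1 h with h | ⟨d, hd, h⟩
        · exact Or.inl (hfrc p h)
        · exact Or.inr ⟨d.1, hd, roof_sub X d.1 (hPr d h)⟩)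
    (by
      intro p y hy
      have hy' : y ∈ frontier (X.cube p) := hy
      have hyX : y ∈ KC.X := mem_iUnion.2 ⟨p, hy⟩
      by_cases hd : ∃ d, y ∈ dsk (cc d) (kk d) (rr d)
      · obtain ⟨d, hd⟩ := hd
        obtain ⟨w, hw, hwy⟩ := hφ2 d y hd
        have h1 : gi (φ.toFun y) = w := by rw [← hwy]; exact (hinv.1 w (hPΩ d hw)).2
        rw [h1]
        intro z hz
        have h2 := (convex_plt (hη d.1).le).segment_subset (hdP d hd) hw hz
        have h3 := adj_of_sqo X (hdsqo d hd) (hfrc p hy')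
        exact (hWmem p z).2 (Or.inr ⟨d, h3.imp Eq.symm Eq.symm, h2⟩)
      · rw [hφ1 y hyX fun d h => hd ⟨d, h⟩, (hinv.1 y (hXΩ hyX)).2, segment_same]
        rintro z hz
        rw [mem_singleton_iff.1 hz]
        exact (hWmem p y).2 (Or.inl hy'))
    (by
      intro p
      refine ⟨otile_sub_cube X p (ctr_otile X p), fun h => ?_⟩
      rcases (hWmem p _).1 h with h | ⟨d, -, h⟩
      · exact ctr_frontier X p h
      · exact ctr_roof X p d.1 (hPr d h))
    (by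
      intro p p' hpp h
      have h0 : ctr X p ∉ X.cube p' := X.dis p p' hpp _ (ctr_otile X p)
      rcases h with h | h
      · exact h0 h
      · rcases (hWmem p' _).1 h with h | ⟨d, -, h⟩
        · exact h0 (hfrc p' h)
        · exact ctr_roof X p d.1 (hPr d h))
    (by
      intro s
      exact ⟨sqo_sub_sq X s (hq1 s), fun h => h.2 (hq1 s)⟩)
    (by
      intro s p hsp h
      rw [hgq s] at h
      have h0 : q s ∉ X.cube p := by
        intro hc
        exact hsp (hadj s p ((adj_of_sqo X (hq1 s) hc).imp Eq.symm Eq.symm))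
      rcases h with h | h
      · exact h0 h
      · rcases (hWmem p _).1 h with h | ⟨d, hd, h⟩
        · exact h0 (hfrc p h)
        · have h1 := (roof_sq X (hPr d h) (sqo_sub_sq X s (hq1 s))).1
          rw [h1] at hd
          exact hsp (hadj s p hd))
  -- the homeomorphism `h'`
  let h' : ConHomeo Ω Λ := hA.symm
  have hh'X : ∀ x ∈ KC.X, h'.toFun x = φ.toFun x := by
    intro x hx
    show hA.invFun x = φ.toFun x
    have h1 : φ.toFun x ∈ X' := φ.mapsTo hx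
    have h2 : hA.toFun (φ.toFun x) = x := by rw [hA1 h1, φ.left_inv hx]
    have h3 := hA.left_inv (hX'Λ h1)
    rw [h2] at h3
    exact h3
  have hnoadj : ∀ p, ¬ (X.cube p ∩ K).Nonempty → ∀ d : D, ¬ (X.sm d.1 = p ∨ X.sp d.1 = p) := by
    intro p hp d hd
    obtain ⟨z, hz, hzK⟩ := hFne d.1 d.2.1 d.2.2
    have hz' : z ∈ dsk (cc d) (kk d) (rr d) := hz
    exact hp ⟨z, hfrc p (hadj d.1 p hd (sqo_sub_sq X d.1 (hdsqo d hz'))), hzK⟩
  have hnodsk : ∀ p, ¬ (X.cube p ∩ K).Nonempty → ∀ x ∈ X.cube p, ∀ d : D,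
      x ∉ dsk (cc d) (kk d) (rr d) := by
    intro p hp x hx d hd
    exact hnoadj p hp d ((adj_of_sqo X (hdsqo d hd) hx).imp Eq.symm Eq.symm)
  have hfr' : ∀ p, ¬ (X.cube p ∩ K).Nonempty → ∀ x ∈ frontier (X.cube p),
      h'.toFun x = g x := by
    intro p hp x hx
    have hxX : x ∈ KC.X := mem_iUnion.2 ⟨p, hx⟩
    rw [hh'X x hxX]
    exact hφ1 x hxX (hnodsk p hp x (hfrc p hx))
  have hin' : ∀ p, ¬ (X.cube p ∩ K).Nonempty → ∀ x ∈ X.cube p, gi (h'.toFun x) ∈ X.cube p := by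
    intro p hp x hx
    have hxΩ : x ∈ Ω := X.sub p hx
    have h1 : h'.toFun x ∈ Λ := h'.mapsTo hxΩ
    have h2 : hA.toFun (h'.toFun x) = x := hA.right_inv hxΩ
    rcases hA2 p (h'.toFun x) h1 (by rw [h2]; exact hx) with h | h
    · exact h
    · rcases (hWmem p _).1 h with h | ⟨d, hd, -⟩
      · exact hfrc p h
      · exact absurd hd (hnoadj p hp d)
  obtain ⟨h, hB1, hB2⟩ := exists_back X hΛ hinv hgc hgic (fun p => ¬ (X.cube p ∩ K).Nonempty) h'
    hfr'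
    (by
      intro p hp
      refine image_eq hinv hgic h' (Q := X.cube p) (O := otile X p) isCompact_Icc (X.sub p)
        (interior_cube X p) ?_ ⟨_, ctr_otile X p⟩ ?_ (hin' p hp)
      · rw [← interior_cube X p]
        exact (convex_Icc _ _).interior.isPreconnected
      · intro x hx hxO
        exact hfr' p hp x (by rw [frontier_cube]; exact ⟨hx, hxO⟩))
    (by
      intro p hp x hx
      exact hcon x ⟨X.sub p hx, fun hxK => hp ⟨x, hx, hxK⟩⟩)
  -- conclusion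
  refine ⟨h, ⋃ d : D, dsk (cc d) (kk d) (rr d), ?_, ?_, ?_, ?_, ?_, ?_⟩
  · exact iUnion_subset fun d => (hdP d).trans (hPΩ d)
  · have h1 : LF (fun d : D => dsk (cc d) (kk d) (rr d)) Ω := LF.subset hLF hdP
    rw [isOpen_iff_mem_nhds]
    rintro z ⟨hz, hzA⟩
    have h2 : z ∉ closure (⋃ d : D, dsk (cc d) (kk d) (rr d)) := fun hcl =>
      hzA (LF.closed h1 (fun d => isCompact_dsk.isClosed) hz hcl)
    filter_upwards [hΩ.mem_nhds hz, isClosed_closure.isOpen_compl.mem_nhds h2] with w hw hw'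
    exact ⟨hw, fun h => hw' (subset_closure h)⟩
  · rintro s x ⟨hxK, hxs⟩
    have h1 : x ∈ K ∩ (N ∩ roof X s) ∩ {x | x (X.nrm s) = X.slo s (X.nrm s)} := by
      rw [hKsq]; exact ⟨hxK, hxs⟩
    obtain ⟨c, hc, hcl⟩ := hFcov s x h1
    refine mem_iUnion.2 ⟨⟨s, c, hc⟩, ?_, fun l hl => (hcl l hl).le⟩
    rw [show x (kk ⟨s, c, hc⟩) = X.slo s (X.nrm s) from h1.2]
    exact (hFc s c hc).symm
  · intro x hx
    obtain ⟨d, hd⟩ := mem_iUnion.1 hx
    have hxs := sqo_sub_sq X d.1 (hdsqo d hd)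
    have hxp := sq_sub_sm X d.1 hxs
    have hne : (X.cube (X.sm d.1) ∩ K).Nonempty := by
      by_contra hne
      exact hnodsk _ hne x hxp d hd
    rw [hB2 _ (not_not.2 hne) x hxp, hh'X x ((hSk x).2 ⟨d.1, hxs⟩)]
    exact image_mono (hPN d) (hφ2 d x hd)
  · intro x hx
    obtain ⟨d, hd⟩ := mem_iUnion.1 hx
    have hxp := sq_sub_sm X d.1 (sqo_sub_sq X d.1 (hdsqo d hd))
    refine ⟨X.sm d.1, ?_, hxp⟩
    by_contra hne
    exact hnodsk _ hne x hxp d hd
  · intro x hx hxA hxo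
    obtain ⟨p, hp⟩ := X.cover x hx
    by_cases hne : (X.cube p ∩ K).Nonempty
    · have hfr : x ∈ frontier (X.cube p) := by
        rw [frontier_cube]
        exact ⟨hp, hxo p hne⟩
      have hxX : x ∈ KC.X := mem_iUnion.2 ⟨p, hfr⟩
      rw [hB2 p (not_not.2 hne) x hp, hh'X x hxX]
      exact hφ1 x hxX fun d hd => hxA (mem_iUnion.2 ⟨d, hd⟩)
    · exact hB1 p hne x hp

end Vale.Agent.P073.RT.T4
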